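import Vale.Agent.H36.PI.NonUnital

/-!
# P133: weakly purely infinite implies purely infinite when the ideals form a chain

For a C*-algebra `A`, unital or not, whose closed two-sided ideals are totally ordered by
inclusion: if for some `n ≥ 1` every positive `h` has `h ⊗ 1_n` properly infinite
(`h ⊗ 1_{2n} ≾ h ⊗ 1_n`, witnessed entrywise by `n × 2n` matrices over `A`),
then every positive `h` is properly infinite (`h ⊕ h ≾ h`, witnessed by a row `(r₁ r₂)` over `A`).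
-/

namespace Vale.Agent.Results.P133.A_ChainIdealLattice

open Vale.Agent.H36.PI

theorem result (A : Type*) [NonUnitalCStarAlgebra A] [PartialOrder A] [StarOrderedRing A]
    (hchain : ∀ I J : TwoSidedIdeal A, IsClosed (I : Set A) → IsClosed (J : Set A) →
      I ≤ J ∨ J ≤ I)
    (n : ℕ) (hn : 1 ≤ n)
    (hwpi : ∀ h : A, 0 ≤ h → ∀ ε : ℝ, 0 < ε → ∃ r : Fin n → Fin (2 * n) → A,
      ∀ i j : Fin (2 * n),
        ‖∑ k : Fin n, star (r k i) * h * r k j - (if i = j then h else 0)‖ < ε) :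
    ∀ h : A, 0 ≤ h → ∀ ε : ℝ, 0 < ε → ∃ r₁ r₂ : A,
      ‖star r₁ * h * r₁ - h‖ < ε ∧ ‖star r₂ * h * r₂ - h‖ < ε ∧
      ‖star r₁ * h * r₂‖ < ε ∧ ‖star r₂ * h * r₁‖ < ε := by
  intro h hh ε hε
  obtain ⟨r, hr⟩ := pi_of_wpi_nonunital hchain n hn hwpi h hh ε hε
  refine ⟨r 0 0, r 0 1, ?_, ?_, ?_, ?_⟩
  · simpa using hr 0 0
  · simpa using hr 1 1
  · simpa using hr 0 1
  · simpa using hr 1 0

end Vale.Agent.Results.P133.A_ChainIdealLattice
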