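import Vale.Agent.H36.PI.Main

/-!
# P133: weakly purely infinite implies purely infinite when the ideals form a chain

For a unital C*-algebra `A` whose closed two-sided ideals are totally ordered by inclusion:
if for some `n ≥ 1` every positive `h` has `h ⊗ 1_n` properly infinite
(`h ⊗ 1_{2n} ≾ h ⊗ 1_n`, witnessed entrywise by `n × 2n` matrices over `A`),
then every positive `h` is properly infinite (`h ⊕ h ≾ h`, witnessed by a row `(r₁ r₂)`).
-/

namespace Vale.Agent.Results.P133.A_ChainIdeals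

open Vale.Agent.H36.PI

theorem result (A : Type*) [CStarAlgebra A] [PartialOrder A] [StarOrderedRing A]
    (hchain : ∀ I J : TwoSidedIdeal A, IsClosed (I : Set A) → IsClosed (J : Set A) →
      I ≤ J ∨ J ≤ I)
    (n : ℕ) (hn : 1 ≤ n)
    (hwpi : ∀ h : A, 0 ≤ h → ∀ ε : ℝ, 0 < ε → ∃ r : Fin n → Fin (2 * n) → A,
      ∀ i j : Fin (2 * n),
        ‖∑ k : Fin n, star (r k i) * h * r k j - (if i = j then h else 0)‖ < ε) :
    ∀ h : A, 0 ≤ h → ∀ ε : ℝ, 0 < ε → ∃ r₁ r₂ : A,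
      ‖star r₁ * h * r₁ - h‖ < ε ∧ ‖star r₂ * h * r₂ - h‖ < ε ∧
      ‖star r₁ * h * r₂‖ < ε ∧ ‖star r₂ * h * r₁‖ < ε := by
  have hBcl : IsClosed ((⊤ : TwoSidedIdeal A) : Set A) := by
    rw [TwoSidedIdeal.coe_top]; exact isClosed_univ
  have hch : ChainIn (⊤ : TwoSidedIdeal A) := fun I J hI hJ _ _ => hchain I J hI hJ
  have hpi : ∀ h : A, h ∈ (⊤ : TwoSidedIdeal A) → 0 ≤ h →
      AmpSub (Fin (2 * n)) (Fin n) h h := fun h _ hh => hwpi h hh
  intro h hh ε hε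
  obtain ⟨r, hr⟩ := pi_of_wpi_rel ⊤ hBcl hch n hn hpi h (TwoSidedIdeal.mem_top A) hh ε hε
  refine ⟨r 0 0, r 0 1, ?_, ?_, ?_, ?_⟩
  · simpa using hr 0 0
  · simpa using hr 1 1
  · simpa using hr 0 1
  · simpa using hr 1 0

end Vale.Agent.Results.P133.A_ChainIdeals
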