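import Vale.Agent.H36.PI.Strong

/-!
# P133: weakly purely infinite, purely infinite and strongly purely infinite agree on chains

For a C*-algebra `A`, unital or not, whose closed two-sided ideals are totally ordered by
inclusion:

1. for every `n ≥ 1`: if every positive `h` has `h ⊗ 1_n` properly infinite
   (`h ⊗ 1_{2n} ≾ h ⊗ 1_n`, witnessed entrywise by `n × 2n` matrices over `A`), then every
   positive `h` is properly infinite (`h ⊕ h ≾ h`, witnessed by two elements `r₁`, `r₂` of `A`) and `A`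
   is strongly purely infinite (for all positive `x, y` and `ε > 0` there are `s, t` with
   `‖s* x² s - x²‖ < ε`, `‖t* y² t - y²‖ < ε` and `‖s* x y t‖ < ε`);
2. if every positive `h` is properly infinite (witnessed by `r₁`, `r₂` as above), then `A` is
   strongly purely infinite.

Part 2 is the case `n = 1` of part 1, written in the form of the problem's question (a).
-/

namespace Vale.Agent.Results.P133.B_ChainThreeNotions

open Vale.Agent.H36.PI

theorem result (A : Type*) [NonUnitalCStarAlgebra A] [PartialOrder A] [StarOrderedRing A]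
    (hchain : ∀ I J : TwoSidedIdeal A, IsClosed (I : Set A) → IsClosed (J : Set A) →
      I ≤ J ∨ J ≤ I) :
    (∀ n : ℕ, 1 ≤ n →
      (∀ h : A, 0 ≤ h → ∀ ε : ℝ, 0 < ε → ∃ r : Fin n → Fin (2 * n) → A,
        ∀ i j : Fin (2 * n),
          ‖∑ k : Fin n, star (r k i) * h * r k j - (if i = j then h else 0)‖ < ε) →
      (∀ h : A, 0 ≤ h → ∀ ε : ℝ, 0 < ε → ∃ r₁ r₂ : A,
        ‖star r₁ * h * r₁ - h‖ < ε ∧ ‖star r₂ * h * r₂ - h‖ < ε ∧
        ‖star r₁ * h * r₂‖ < ε ∧ ‖star r₂ * h * r₁‖ < ε) ∧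
      (∀ x y : A, 0 ≤ x → 0 ≤ y → ∀ ε : ℝ, 0 < ε → ∃ s t : A,
        ‖star s * (x * x) * s - x * x‖ < ε ∧ ‖star t * (y * y) * t - y * y‖ < ε ∧
        ‖star s * (x * y) * t‖ < ε)) ∧
    ((∀ h : A, 0 ≤ h → ∀ ε : ℝ, 0 < ε → ∃ r₁ r₂ : A,
        ‖star r₁ * h * r₁ - h‖ < ε ∧ ‖star r₂ * h * r₂ - h‖ < ε ∧
        ‖star r₁ * h * r₂‖ < ε ∧ ‖star r₂ * h * r₁‖ < ε) →
      (∀ x y : A, 0 ≤ x → 0 ≤ y → ∀ ε : ℝ, 0 < ε → ∃ s t : A,
        ‖star s * (x * x) * s - x * x‖ < ε ∧ ‖star t * (y * y) * t - y * y‖ < ε ∧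
        ‖star s * (x * y) * t‖ < ε)) := by
  refine ⟨?_, ?_⟩
  · intro n hn hwpi
    refine ⟨?_, spi_of_wpi_nonunital hchain n hn hwpi⟩
    intro h hh ε hε
    obtain ⟨r, hr⟩ := pi_of_wpi_nonunital hchain n hn hwpi h hh ε hε
    refine ⟨r 0 0, r 0 1, ?_, ?_, ?_, ?_⟩
    · simpa using hr 0 0
    · simpa using hr 1 1
    · simpa using hr 0 1
    · simpa using hr 1 0
  · intro hpi
    refine spi_of_wpi_nonunital hchain 1 le_rfl ?_
    intro h hh ε hε
    obtain ⟨r₁, r₂, h11, h22, h12, h21⟩ := hpi h hh ε hε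
    refine ⟨fun _ j => if j = (0 : Fin (2 * 1)) then r₁ else r₂, ?_⟩
    have key : ∀ i j : Fin 2,
        ‖∑ k : Fin 1, star ((fun (_ : Fin 1) (j : Fin 2) => if j = (0 : Fin 2) then r₁ else r₂) k i)
          * h * (fun (_ : Fin 1) (j : Fin 2) => if j = (0 : Fin 2) then r₁ else r₂) k j
          - (if i = j then h else 0)‖ < ε := by
      intro i j
      fin_cases i <;> fin_cases j
      · simpa using h11
      · simpa using h12
      · simpa using h21
      · simpa using h22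
    exact key

end Vale.Agent.Results.P133.B_ChainThreeNotions
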